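import Vale.Agent.H5.GenK.WFubini
import Vale.Agent.H76.Space

/-!
# GK-25 (`cover_sum`): from the line bound to the covering inequality (conclusion of LEMMA F)

`K` compact with positive volume in Euclidean 3-space, `N ⊆ K` measurable with
`κ vol N ≤ (δ/6) vol K`, `0 ≤ δ ≤ 1`, `0 ≤ κ ≤ 1`, and the line bound `hline` for every cylinder
direction.  Then every covering of `K` by cylinders `B i + ℝ u i` has
`∑ i, |B i| / |S_i| ≥ 1/3 + δ/18`.

Proof (pattern: `Vale.Agent.H5.P243.tetra_all_cylinders`, TetraU.lean).  `V := volume K`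
(`0 < V < ∞`), `W := volume (K \ N) + ofReal (1 - κ) * volume N`.
* `W ≥ ofReal (1 - δ/6) * V`: `volume (K \ N) = V - volume N` (`measure_diff`), so in real numbers
  `W = V - κ vol N ≥ V - (δ/6) V`.
* For each `i` let `B' i := toMeasurable volume (Subtype.val ⁻¹' B i)` in `↥(span {u i})ᗮ`
  (`volume (B' i) = μHE[2] (B i)` by `measure_toMeasurable` and `Vale.Agent.H76.hausdorff_base`),
  `C i := proj_i ⁻¹' (B' i)`; `K ⊆ ⋃ i, C i` (`Vale.Agent.H76.proj_mem_of_cyl`,
  `subset_toMeasurable`).  `weighted_fubini` with `F := ofReal (3 - δ) * V / S_i`,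
  `S_i := volume (proj_i '' K) = μHE[2] (shadow_i)` (`Vale.Agent.H76.hausdorff_shadow`):
  `volume ((K \ N) ∩ C i) + ofReal (1 - κ) * volume (N ∩ C i) ≤ F * μHE[2] (B i)
   = ofReal (3 - δ) * V * (μHE[2] (B i) / S_i)`.
* `W ≤ ∑ i, (volume ((K \ N) ∩ C i) + ofReal (1 - κ) * volume (N ∩ C i))`
  (`measure_mono` + `measure_iUnion_fintype_le` for `K \ N` and for `N`, `Finset.mul_sum`,
  `Finset.sum_add_distrib`).
* Hence `ofReal (1 - δ/6) * V ≤ ofReal (3 - δ) * V * R` with `R := ∑ i, μHE[2] (B i) / S_i`;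
  cancel `V` (`ENNReal.mul_le_mul_iff_right`-style as in TetraU), treat `R = ⊤` separately, and
  in real numbers `(1 - δ/6) ≤ (3 - δ) r` gives `r ≥ 1/3 + δ/18` because
  `(3 - δ)(1/3 + δ/18) = 1 - δ/6 - δ^2/18 ≤ 1 - δ/6`.
-/

open MeasureTheory Set Module
open scoped ENNReal

namespace Vale.Agent.H5.GenK

theorem cover_sum (m : ℕ) (K N : Set (EuclideanSpace ℝ (Fin 3))) (hKcomp : IsCompact K)
    (hKpos : 0 < volume K) (hNm : MeasurableSet N) (hNK : N ⊆ K) (δ κ : ℝ)
    (hδ0 : 0 ≤ δ) (hδ1 : δ ≤ 1) (hκ0 : 0 ≤ κ) (hκ1 : κ ≤ 1)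
    (hNvol : ENNReal.ofReal κ * volume N ≤ ENNReal.ofReal (δ / 6) * volume K)
    (u : Fin m → EuclideanSpace ℝ (Fin 3)) (hu : ∀ i, ‖u i‖ = 1)
    (B : Fin m → Set (EuclideanSpace ℝ (Fin 3)))
    (hB : ∀ i, ∀ x ∈ B i, inner ℝ x (u i) = 0)
    (hcov : K ⊆ ⋃ i, {x | ∃ b ∈ B i, ∃ t : ℝ, x = b + t • u i})
    (hline : ∀ i, ∀ p : EuclideanSpace ℝ (Fin 3),
      volume {t : ℝ | p + t • u i ∈ K \ N} +
          ENNReal.ofReal (1 - κ) * volume {t : ℝ | p + t • u i ∈ N} ≤
        ENNReal.ofReal (3 - δ) * volume K /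
          volume ((Submodule.span ℝ {u i})ᗮ.orthogonalProjectionOnto '' K)) :
    ENNReal.ofReal (1 / 3 + δ / 18) ≤
      ∑ i, μHE[2] (B i) / μHE[2] ((fun x => x - inner ℝ x (u i) • u i) '' K) := by
  classical
  have hE : finrank ℝ (EuclideanSpace ℝ (Fin 3)) = 3 := by simp
  have hKm : MeasurableSet K := hKcomp.measurableSet
  have hVfin : volume K ≠ ⊤ := hKcomp.measure_lt_top.ne
  have hNfin : volume N ≠ ⊤ := ne_top_of_le_ne_top hVfin (measure_mono hNK)
  -- the bases inside the subspaces and their measurable hulls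
  have hB'm : ∀ i, MeasurableSet
      (toMeasurable volume (Subtype.val ⁻¹' B i : Set ↥(Submodule.span ℝ {u i})ᗮ)) :=
    fun i => measurableSet_toMeasurable _ _
  have hB'v : ∀ i, volume
      (toMeasurable volume (Subtype.val ⁻¹' B i : Set ↥(Submodule.span ℝ {u i})ᗮ)) =
      μHE[2] (B i) := by
    intro i
    rw [measure_toMeasurable, Vale.Agent.H76.hausdorff_base hE (u i) (hu i) (B i) (hB i)]
  have hS : ∀ i, μHE[2] ((fun x => x - inner ℝ x (u i) • u i) '' K) =
      volume ((Submodule.span ℝ {u i})ᗮ.orthogonalProjectionOnto '' K) :=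
    fun i => Vale.Agent.H76.hausdorff_shadow hE (u i) (hu i) K
  -- membership in the cylinders
  have hmem : ∀ x ∈ K, ∃ i, x ∈ (Submodule.span ℝ {u i})ᗮ.orthogonalProjectionOnto ⁻¹'
      (toMeasurable volume (Subtype.val ⁻¹' B i : Set ↥(Submodule.span ℝ {u i})ᗮ)) := by
    intro x hx
    obtain ⟨i, hi⟩ := mem_iUnion.1 (hcov hx)
    exact ⟨i, subset_toMeasurable _ _
      (Vale.Agent.H76.proj_mem_of_cyl (u i) (hu i) (B i) (hB i) x hi)⟩
  have hcov1 : K \ N ⊆ ⋃ i, ((K \ N) ∩
      (Submodule.span ℝ {u i})ᗮ.orthogonalProjectionOnto ⁻¹'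
        (toMeasurable volume (Subtype.val ⁻¹' B i : Set ↥(Submodule.span ℝ {u i})ᗮ))) := by
    intro x hx
    obtain ⟨i, hi⟩ := hmem x hx.1
    exact mem_iUnion.2 ⟨i, hx, hi⟩
  have hcov2 : N ⊆ ⋃ i, (N ∩
      (Submodule.span ℝ {u i})ᗮ.orthogonalProjectionOnto ⁻¹'
        (toMeasurable volume (Subtype.val ⁻¹' B i : Set ↥(Submodule.span ℝ {u i})ᗮ))) := by
    intro x hx
    obtain ⟨i, hi⟩ := hmem x (hNK hx)
    exact mem_iUnion.2 ⟨i, hx, hi⟩
  -- one cylinder
  have hper : ∀ i, volume ((K \ N) ∩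
        (Submodule.span ℝ {u i})ᗮ.orthogonalProjectionOnto ⁻¹'
          (toMeasurable volume (Subtype.val ⁻¹' B i : Set ↥(Submodule.span ℝ {u i})ᗮ))) +
      ENNReal.ofReal (1 - κ) * volume (N ∩
        (Submodule.span ℝ {u i})ᗮ.orthogonalProjectionOnto ⁻¹'
          (toMeasurable volume (Subtype.val ⁻¹' B i : Set ↥(Submodule.span ℝ {u i})ᗮ))) ≤
      ENNReal.ofReal (3 - δ) * volume K * (μHE[2] (B i) /
        μHE[2] ((fun x => x - inner ℝ x (u i) • u i) '' K)) := by
    intro i
    have h := weighted_fubini (u i) (hu i) hKm hNm κ _ (hline i) (hB'm i)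
    rw [hB'v i] at h
    rw [hS i]
    calc _ ≤ _ := h
      _ = _ := by
          simp only [div_eq_mul_inv]
          ring
  -- summation
  set R : ℝ≥0∞ := ∑ i, μHE[2] (B i) /
    μHE[2] ((fun x => x - inner ℝ x (u i) • u i) '' K) with hR
  have hsum : volume (K \ N) + ENNReal.ofReal (1 - κ) * volume N ≤
      ENNReal.ofReal (3 - δ) * volume K * R := by
    have h1 : volume (K \ N) ≤ ∑ i, volume ((K \ N) ∩
        (Submodule.span ℝ {u i})ᗮ.orthogonalProjectionOnto ⁻¹'
          (toMeasurable volume (Subtype.val ⁻¹' B i : Set ↥(Submodule.span ℝ {u i})ᗮ))) :=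
      (measure_mono hcov1).trans (measure_iUnion_fintype_le _ _)
    have h2 : volume N ≤ ∑ i, volume (N ∩
        (Submodule.span ℝ {u i})ᗮ.orthogonalProjectionOnto ⁻¹'
          (toMeasurable volume (Subtype.val ⁻¹' B i : Set ↥(Submodule.span ℝ {u i})ᗮ))) :=
      (measure_mono hcov2).trans (measure_iUnion_fintype_le _ _)
    calc volume (K \ N) + ENNReal.ofReal (1 - κ) * volume N
        ≤ ∑ i, volume ((K \ N) ∩
            (Submodule.span ℝ {u i})ᗮ.orthogonalProjectionOnto ⁻¹'
              (toMeasurable volume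
                (Subtype.val ⁻¹' B i : Set ↥(Submodule.span ℝ {u i})ᗮ))) +
          ENNReal.ofReal (1 - κ) * ∑ i, volume (N ∩
            (Submodule.span ℝ {u i})ᗮ.orthogonalProjectionOnto ⁻¹'
              (toMeasurable volume
                (Subtype.val ⁻¹' B i : Set ↥(Submodule.span ℝ {u i})ᗮ))) := by
          gcongr
      _ = ∑ i, (volume ((K \ N) ∩
            (Submodule.span ℝ {u i})ᗮ.orthogonalProjectionOnto ⁻¹'
              (toMeasurable volume
                (Subtype.val ⁻¹' B i : Set ↥(Submodule.span ℝ {u i})ᗮ))) +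
          ENNReal.ofReal (1 - κ) * volume (N ∩
            (Submodule.span ℝ {u i})ᗮ.orthogonalProjectionOnto ⁻¹'
              (toMeasurable volume
                (Subtype.val ⁻¹' B i : Set ↥(Submodule.span ℝ {u i})ᗮ)))) := by
          rw [Finset.mul_sum, Finset.sum_add_distrib]
      _ ≤ ∑ i, ENNReal.ofReal (3 - δ) * volume K * (μHE[2] (B i) /
            μHE[2] ((fun x => x - inner ℝ x (u i) • u i) '' K)) :=
          Finset.sum_le_sum fun i _ => hper i
      _ = _ := by rw [Finset.mul_sum]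
  -- the weighted volume from below
  have hW : ENNReal.ofReal (1 - δ / 6) * volume K ≤
      volume (K \ N) + ENNReal.ofReal (1 - κ) * volume N := by
    have hdiff : volume (K \ N) = volume K - volume N :=
      measure_diff hNK hNm.nullMeasurableSet hNfin
    have hv : volume K = ENNReal.ofReal (volume K).toReal := (ENNReal.ofReal_toReal hVfin).symm
    have ha : volume N = ENNReal.ofReal (volume N).toReal := (ENNReal.ofReal_toReal hNfin).symm
    have hv0 : 0 ≤ (volume K).toReal := ENNReal.toReal_nonneg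
    have ha0 : 0 ≤ (volume N).toReal := ENNReal.toReal_nonneg
    have hav : (volume N).toReal ≤ (volume K).toReal :=
      ENNReal.toReal_mono hVfin (measure_mono hNK)
    have hκa : κ * (volume N).toReal ≤ δ / 6 * (volume K).toReal := by
      have h := hNvol
      rw [hv, ha, ← ENNReal.ofReal_mul hκ0, ← ENNReal.ofReal_mul (by positivity),
        ENNReal.ofReal_le_ofReal_iff (by positivity)] at h
      exact h
    rw [hdiff]
    generalize (volume K).toReal = v at hv hv0 hav hκa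
    generalize (volume N).toReal = a at ha ha0 hav hκa
    rw [hv, ha, ← ENNReal.ofReal_sub _ ha0, ← ENNReal.ofReal_mul (by linarith),
      ← ENNReal.ofReal_mul (by linarith),
      ← ENNReal.ofReal_add (by linarith) (mul_nonneg (by linarith) ha0)]
    apply ENNReal.ofReal_le_ofReal
    nlinarith
  -- divide by the volume
  have hmain : volume K * ENNReal.ofReal (1 - δ / 6) ≤
      volume K * (ENNReal.ofReal (3 - δ) * R) := by
    calc volume K * ENNReal.ofReal (1 - δ / 6) = ENNReal.ofReal (1 - δ / 6) * volume K :=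
          mul_comm _ _
      _ ≤ volume (K \ N) + ENNReal.ofReal (1 - κ) * volume N := hW
      _ ≤ ENNReal.ofReal (3 - δ) * volume K * R := hsum
      _ = volume K * (ENNReal.ofReal (3 - δ) * R) := by ring
  have hone : ENNReal.ofReal (1 - δ / 6) ≤ ENNReal.ofReal (3 - δ) * R :=
    (ENNReal.mul_le_mul_iff_right hKpos.ne' hVfin).1 hmain
  by_cases hRtop : R = ⊤
  · rw [hRtop]
    exact le_top
  · have hRr : R = ENNReal.ofReal R.toReal := (ENNReal.ofReal_toReal hRtop).symm
    have hr0 : 0 ≤ R.toReal := ENNReal.toReal_nonneg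
    rw [hRr, ← ENNReal.ofReal_mul (by linarith),
      ENNReal.ofReal_le_ofReal_iff (mul_nonneg (by linarith) hr0)] at hone
    rw [hRr]
    apply ENNReal.ofReal_le_ofReal
    nlinarith

end Vale.Agent.H5.GenK
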