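import Vale.Agent.H5.P243.UCone
import Vale.Agent.H5.P243.UShadowPos

/-!
# GK-8 (`ext_basic`): elementary consequences of `δ`-extremality (STEP 0 of LEMMA S)

`K` compact convex, `closedBall c ρ ⊆ K ⊆ closedBall c R`, a chord `[e, e + L • u]` with
`(3 - δ) vol K < L |S_u|` (`S_u` the shadow along `u`), `0 ≤ δ ≤ 1`.  Then
`ρ < L ≤ 2R` and every chord of `K` in the direction `u` has length `≤ L + δ L / 2`.

Tool: `Vale.Agent.H5.P243.cone_bound`: a chord `[y, y + s • u] ⊆ K`, `s ≥ 0`, gives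
`ofReal s * |S_u| ≤ 3 * vol K`.  `|S_u| < ∞` (compact image) and `|S_u| ≠ 0` (otherwise `hext`
reads `_ < 0`); `vol K < ∞`.  Work with `toReal`s: `V`, `A > 0`, `(3 - δ) V < L A`.
* `L ≤ 2R`: `e, e + L • u ∈ closedBall c R`, so `|L| = ‖L • u‖ ≤ 2R`.
* `ρ < L`: the chord `[c - ρ • u, c + ρ • u]` (both ends in `closedBall c ρ ⊆ K`) gives
  `2ρ A ≤ 3V`; so `(3 - δ) 2ρ A ≤ 3 (3 - δ) V < 3 L A`, `L > (2/3)(3 - δ) ρ ≥ (4/3) ρ`.
* chords: for `s ≤ 0` clear (`L > 0`); for `s > 0`: `s A ≤ 3V`, so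
  `(3 - δ) s A < 3 L A`, `s < 3L/(3 - δ) ≤ L (1 + δ/2)` because
  `(3 - δ)(1 + δ/2) = 3 + δ(1 - δ)/2 ≥ 3`.
-/

open MeasureTheory Set Module
open scoped ENNReal

namespace Vale.Agent.H5.GenK

variable {E : Type*} [NormedAddCommGroup E] [InnerProductSpace ℝ E] [FiniteDimensional ℝ E]
  [MeasurableSpace E] [BorelSpace E]

theorem ext_basic (hE : finrank ℝ E = 3) {K : Set E} (hK : IsCompact K) (hKc : Convex ℝ K)
    {c : E} {ρ R : ℝ} (hρ : 0 < ρ) (hin : Metric.closedBall c ρ ⊆ K)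
    (hout : K ⊆ Metric.closedBall c R) {u e : E} (hu : ‖u‖ = 1) {L δ : ℝ}
    (hδ0 : 0 ≤ δ) (hδ1 : δ ≤ 1) (he : e ∈ K) (heL : e + L • u ∈ K)
    (hext : ENNReal.ofReal (3 - δ) * volume K <
      ENNReal.ofReal L * volume ((Submodule.span ℝ {u})ᗮ.orthogonalProjectionOnto '' K)) :
    ρ < L ∧ L ≤ 2 * R ∧ ∀ x ∈ K, ∀ s : ℝ, x + s • u ∈ K → s ≤ L + δ * L / 2 := by
  set P : Set ↥(Submodule.span ℝ {u})ᗮ :=
    (Submodule.span ℝ {u})ᗮ.orthogonalProjectionOnto '' K with hP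
  have hPc : IsCompact P := hK.image (ContinuousLinearMap.continuous _)
  have hAfin : volume P ≠ ⊤ := hPc.measure_lt_top.ne
  have hVfin : volume K ≠ ⊤ := hK.measure_lt_top.ne
  have hA0 : volume P ≠ 0 := by
    intro h0
    rw [h0, mul_zero] at hext
    exact ENNReal.not_lt_zero hext
  obtain ⟨A, hA⟩ : ∃ A : ℝ, A = (volume P).toReal := ⟨_, rfl⟩
  obtain ⟨V, hV⟩ : ∃ V : ℝ, V = (volume K).toReal := ⟨_, rfl⟩
  have hApos : 0 < A := by
    rw [hA]
    exact ENNReal.toReal_pos hA0 hAfin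
  have hV0 : 0 ≤ V := by
    rw [hV]
    exact ENNReal.toReal_nonneg
  have h3δ : 0 ≤ 3 - δ := by linarith
  -- real version of the extremality hypothesis
  have hextR : (3 - δ) * V < L * A := by
    have h1 : ENNReal.ofReal (3 - δ) * volume K = ENNReal.ofReal ((3 - δ) * V) := by
      rw [ENNReal.ofReal_mul h3δ, hV, ENNReal.ofReal_toReal hVfin]
    have h2 : ENNReal.ofReal L * volume P = ENNReal.ofReal (L * A) := by
      rw [ENNReal.ofReal_mul' hApos.le, hA, ENNReal.ofReal_toReal hAfin]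
    rw [h1, h2] at hext
    exact (ENNReal.ofReal_lt_ofReal_iff_of_nonneg (mul_nonneg h3δ hV0)).mp hext
  -- real version of the cone bound
  have hcone : ∀ y ∈ K, ∀ s : ℝ, 0 ≤ s → y + s • u ∈ K → s * A ≤ 3 * V := by
    intro y hy s hs hys
    have h := Vale.Agent.H5.P243.cone_bound hE u hu hK hKc hs hy hys
    have h1 : ENNReal.ofReal s * volume P = ENNReal.ofReal (s * A) := by
      rw [ENNReal.ofReal_mul hs, hA, ENNReal.ofReal_toReal hAfin]
    have h2 : (3 : ℝ≥0∞) * volume K = ENNReal.ofReal (3 * V) := by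
      rw [ENNReal.ofReal_mul (by norm_num), hV, ENNReal.ofReal_toReal hVfin]
      simp
    rw [← hP, h1, h2] at h
    exact (ENNReal.ofReal_le_ofReal_iff (by positivity)).mp h
  have hLpos : 0 < L := by
    by_contra hL
    rw [not_lt] at hL
    have h1 : L * A ≤ 0 := mul_nonpos_of_nonpos_of_nonneg hL hApos.le
    have h2 : 0 ≤ (3 - δ) * V := mul_nonneg h3δ hV0
    linarith
  refine ⟨?_, ?_, ?_⟩
  · -- the chord through the centre
    have h1 : c - ρ • u ∈ K := by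
      apply hin
      rw [Metric.mem_closedBall, dist_eq_norm]
      have e1 : c - ρ • u - c = -(ρ • u) := by abel
      rw [e1, norm_neg, norm_smul, hu, mul_one, Real.norm_eq_abs, abs_of_pos hρ]
    have h2 : (c - ρ • u) + (2 * ρ) • u ∈ K := by
      apply hin
      rw [Metric.mem_closedBall, dist_eq_norm]
      have e1 : c - ρ • u + (2 * ρ) • u - c = ρ • u := by module
      rw [e1, norm_smul, hu, mul_one, Real.norm_eq_abs, abs_of_pos hρ]
    have h3 := hcone _ h1 (2 * ρ) (by linarith) h2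
    by_contra hL
    rw [not_lt] at hL
    have h4 : (3 - δ) * (2 * ρ * A) ≤ (3 - δ) * (3 * V) := mul_le_mul_of_nonneg_left h3 h3δ
    have h5 : L * A ≤ ρ * A := mul_le_mul_of_nonneg_right hL hApos.le
    have h6 : 0 < ρ * A := mul_pos hρ hApos
    have h7 : 0 ≤ (1 - δ) * (ρ * A) := mul_nonneg (sub_nonneg.mpr hδ1) h6.le
    nlinarith [h4, h5, h6, h7, hextR]
  · have h1 := hout he
    have h2 := hout heL
    rw [Metric.mem_closedBall, dist_eq_norm] at h1 h2
    have h3 : ‖L • u‖ ≤ ‖e + L • u - c‖ + ‖e - c‖ := by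
      have e1 : L • u = (e + L • u - c) - (e - c) := by abel
      calc ‖L • u‖ = ‖(e + L • u - c) - (e - c)‖ := congrArg norm e1
        _ ≤ ‖e + L • u - c‖ + ‖e - c‖ := norm_sub_le _ _
    rw [norm_smul, hu, mul_one, Real.norm_eq_abs, abs_of_pos hLpos] at h3
    linarith
  · intro x hx s hxs
    by_cases hs : s ≤ 0
    · have h1 : 0 ≤ δ * L / 2 := by positivity
      linarith
    · rw [not_le] at hs
      by_contra hcon
      rw [not_le] at hcon
      have h1 := hcone x hx s hs.le hxs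
      have h2 : (L + δ * L / 2) * A < s * A := mul_lt_mul_of_pos_right hcon hApos
      have h3 : (3 - δ) * ((L + δ * L / 2) * A) ≤ (3 - δ) * (s * A) :=
        mul_le_mul_of_nonneg_left h2.le h3δ
      have h4 : (3 - δ) * (s * A) ≤ (3 - δ) * (3 * V) := mul_le_mul_of_nonneg_left h1 h3δ
      have h5 : 0 ≤ δ * (1 - δ) * (L * A) :=
        mul_nonneg (mul_nonneg hδ0 (sub_nonneg.mpr hδ1)) (mul_pos hLpos hApos).le
      nlinarith [h3, h4, h5, hextR]

end Vale.Agent.H5.GenK
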