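import Vale.Agent.H5.GenK.LemmaS
import Vale.Agent.H5.P243.UFubini
import Vale.Agent.H5.P243.UShadowPos

/-!
# GK-24 (`line_bound`): the weighted length of every chord (line bound of LEMMA F)

`K` compact convex in the 3-space `E`, `closedBall c ρ ⊆ K ⊆ closedBall c R`; `N ⊆ K` measurable
containing every point of `K` within `d0` of an `(η, s)`-sharp point, where
`η ≥ 96 δ R^3/ρ^2`, `0 < s ≤ (ρ/R)^5/14112`, `0 < d0 ≤ ρ`, `0 < δ ≤ ρ^2/(96R^2)`, `0 ≤ κ ≤ 1`,
`2Rδ ≤ κ d0`.  Then for every line `p + ℝ u`: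
`|line ∩ (K \ N)| + (1 - κ) |line ∩ N| ≤ (3 - δ) vol K / |S_u|`.

Proof.  `A := {t | p + t • u ∈ K}` is compact and convex (closed preimage, bounded since
`‖t • u‖ = |t|`).  If `A = ∅` both sets on the left are empty.  Otherwise `A = Icc t₁ t₂`
(`IsCompact.exists_isLeast/isGreatest`, `Convex.ordConnected`), `e := p + t₁ • u`,
`L := t₂ - t₁ ≥ 0`, `e + L • u = p + t₂ • u ∈ K`, and `hfull : e + z • u ∈ K → 0 ≤ z ≤ L`.
`a := volume {t | p + t • u ∈ K \ N}`, `b := volume {t | p + t • u ∈ N}`: the two sets are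
disjoint with union `A` (`hNK`), the second is measurable (`hNm`, continuity), so
`a + b = volume A = ofReal L` (`measure_union`, `Real.volume_Icc`).
`V := volume K`, `S := volume (proj '' K)`: `V < ∞`, `S < ∞` (compact), `0 < V`
(`Metric.ball c ρ ⊆ K`, `Metric.measure_ball_pos`), `0 < S` (`Vale.Agent.H5.P243.shadow_pos`).

Case 1: `ofReal L * S ≤ ofReal (3 - δ) * V`.  Then
`a + ofReal (1 - κ) * b ≤ a + b = ofReal L ≤ ofReal (3 - δ) * V / S`
(`ENNReal.le_div_iff_mul_le`).

Case 2: `ofReal (3 - δ) * V < ofReal L * S`.  `ext_basic` (`δ ≤ 1`): `ρ < L ≤ 2R`.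
`lemma_S`: `e + L • u` or `e` is `(48 δ L (R/ρ)^2, (ρ/R)^5/14112)`-sharp, hence `(η, s)`-sharp
(`Sharp.mono`: `48 δ L (R/ρ)^2 ≤ 96 δ R^3/ρ^2 ≤ η` as `L ≤ 2R`).  `d0 ≤ ρ < L`.  If the sharp
end is `e + L • u = p + t₂ • u`: for `t ∈ Icc (t₂ - d0) t₂`, `p + t • u ∈ K` and
`dist (p + t • u) (p + t₂ • u) = |t - t₂| ≤ d0`, so `p + t • u ∈ N` (`hN`); thus
`b ≥ volume (Icc (t₂ - d0) t₂) = ofReal d0`; same with `Icc t₁ (t₁ + d0)` for the end `e`.
In real numbers (`a, b` finite, `a + b = L`, `b ≥ d0`):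
`a + (1 - κ) b = L - κ b ≤ L - κ d0`.
`Vale.Agent.H5.P243.cone_bound` (`y := e`, `s := L`): `ofReal L * S ≤ 3 * V`, i.e.
`L ≤ 3 V/S` (`toReal`).  `Vale.Agent.H5.P243.chord_fubini` with `F := 2R` and `B := proj '' K`
(`K ∩ proj ⁻¹' (proj '' K) = K`; chords of `K ⊆ closedBall c R` are `≤ 2R`):
`V ≤ ofReal (2R) * S`, so `δ V/S ≤ 2Rδ ≤ κ d0`.  Hence
`L - κ d0 ≤ 3 V/S - δ V/S = (3 - δ) V/S`.
-/

open MeasureTheory Set Module
open scoped ENNReal

namespace Vale.Agent.H5.GenK

variable {E : Type*} [NormedAddCommGroup E] [InnerProductSpace ℝ E] [FiniteDimensional ℝ E]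
  [MeasurableSpace E] [BorelSpace E]

theorem line_bound (hE : finrank ℝ E = 3) {K N : Set E} (hK : IsCompact K) (hKc : Convex ℝ K)
    {c : E} {ρ R δ κ d0 η s : ℝ} (hρ : 0 < ρ) (hin : Metric.closedBall c ρ ⊆ K)
    (hout : K ⊆ Metric.closedBall c R) (hδ0 : 0 < δ) (hδ : δ ≤ ρ ^ 2 / (96 * R ^ 2))
    (hκ0 : 0 ≤ κ) (hκ1 : κ ≤ 1) (hd0 : 0 < d0) (hd0ρ : d0 ≤ ρ) (hκd : 2 * R * δ ≤ κ * d0)
    (hη : 96 * δ * R ^ 3 / ρ ^ 2 ≤ η) (hs0 : 0 < s) (hs : s ≤ (ρ / R) ^ 5 / 14112)
    (hNm : MeasurableSet N) (hNK : N ⊆ K)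
    (hN : ∀ e, Sharp K η s e → ∀ x ∈ K, dist x e ≤ d0 → x ∈ N)
    (u : E) (hu : ‖u‖ = 1) (p : E) :
    volume {t : ℝ | p + t • u ∈ K \ N} +
        ENNReal.ofReal (1 - κ) * volume {t : ℝ | p + t • u ∈ N} ≤
      ENNReal.ofReal (3 - δ) * volume K /
        volume ((Submodule.span ℝ {u})ᗮ.orthogonalProjectionOnto '' K) := by
  classical
  set P := (Submodule.span ℝ {u})ᗮ.orthogonalProjectionOnto '' K with hP
  have hKfin : volume K ≠ ⊤ := hK.measure_lt_top.ne
  have hPc : IsCompact P := hK.image (ContinuousLinearMap.continuous _)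
  have hPfin : volume P ≠ ⊤ := hPc.measure_lt_top.ne
  have hV : 0 < volume K :=
    lt_of_lt_of_le (Metric.measure_ball_pos volume c hρ)
      (measure_mono (Metric.ball_subset_closedBall.trans hin))
  have hPpos : 0 < volume P := Vale.Agent.H5.P243.shadow_pos hE u hu hK hV
  have hρR : ρ ≤ R := by
    have hcu : c + ρ • u - c = ρ • u := by abel
    have hmem : c + ρ • u ∈ Metric.closedBall c ρ := by
      rw [Metric.mem_closedBall, dist_eq_norm, hcu, norm_smul, hu, mul_one, Real.norm_eq_abs,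
        abs_of_pos hρ]
    have h2 := hout (hin hmem)
    rw [Metric.mem_closedBall, dist_eq_norm, hcu, norm_smul, hu, mul_one, Real.norm_eq_abs,
      abs_of_pos hρ] at h2
    exact h2
  have hR : 0 < R := lt_of_lt_of_le hρ hρR
  have hδ1 : δ ≤ 1 := by
    have : ρ ^ 2 / (96 * R ^ 2) ≤ 1 := by
      rw [div_le_one (by positivity)]
      nlinarith
    linarith
  have hdiam : ∀ x ∈ K, ∀ t : ℝ, x + t • u ∈ K → t ≤ 2 * R := by
    intro x hx t hxt
    have h1 := hout hx
    have h2 := hout hxt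
    rw [Metric.mem_closedBall] at h1 h2
    have h3 : dist (x + t • u) x ≤ 2 * R := by
      calc dist (x + t • u) x ≤ dist (x + t • u) c + dist c x := dist_triangle _ _ _
        _ ≤ R + R := by rw [dist_comm c x]; exact add_le_add h2 h1
        _ = 2 * R := by ring
    have hxu : x + t • u - x = t • u := by abel
    rw [dist_eq_norm, hxu, norm_smul, hu, mul_one, Real.norm_eq_abs] at h3
    exact (le_abs_self t).trans h3
  set V := (volume K).toReal with hVdef
  set A := (volume P).toReal with hAdef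
  have hVpos : 0 < V := ENNReal.toReal_pos hV.ne' hKfin
  have hApos : 0 < A := ENNReal.toReal_pos hPpos.ne' hPfin
  have hVeq : volume K = ENNReal.ofReal V := (ENNReal.ofReal_toReal hKfin).symm
  have hAeq : volume P = ENNReal.ofReal A := (ENNReal.ofReal_toReal hPfin).symm
  have hγc : Continuous fun t : ℝ => p + t • u := by fun_prop
  set I : Set ℝ := {t : ℝ | p + t • u ∈ K} with hI
  set J : Set ℝ := {t : ℝ | p + t • u ∈ N} with hJ
  have hIcl : IsClosed I := hK.isClosed.preimage hγc
  have hJmeas : MeasurableSet J := hγc.measurable hNm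
  have hJI : J ⊆ I := fun t ht => hNK ht
  have hD : {t : ℝ | p + t • u ∈ K \ N} = I \ J := by
    ext t
    exact Iff.rfl
  rw [hD]
  by_cases hne : I.Nonempty
  swap
  · have hIe : I = ∅ := not_nonempty_iff_eq_empty.mp hne
    have hJe : J = ∅ := subset_eq_empty hJI hIe
    simp [hIe, hJe]
  obtain ⟨t0, ht0⟩ := hne
  have hIsub : I ⊆ Icc (t0 - 2 * R) (t0 + 2 * R) := by
    intro t ht
    have h1 := hdiam _ ht0 (t - t0) (by
      have : p + t0 • u + (t - t0) • u = p + t • u := by module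
      rw [this]; exact ht)
    have h2 := hdiam _ ht (t0 - t) (by
      have : p + t • u + (t0 - t) • u = p + t0 • u := by module
      rw [this]; exact ht0)
    constructor <;> linarith
  have hIc : IsCompact I := isCompact_Icc.of_isClosed_subset hIcl hIsub
  have hIne : I.Nonempty := ⟨t0, ht0⟩
  set α := sInf I with hα
  set β := sSup I with hβ
  have hαI : α ∈ I := hIc.sInf_mem hIne
  have hβI : β ∈ I := hIc.sSup_mem hIne
  have hIconv : Convex ℝ I := by
    intro x hx y hy a b ha hb hab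
    have hb' : b = 1 - a := by linarith
    subst hb'
    have hx' : p + x • u ∈ K := hx
    have hy' : p + y • u ∈ K := hy
    have heq : p + (a • x + (1 - a) • y) • u
        = a • (p + x • u) + (1 - a) • (p + y • u) := by
      simp only [smul_eq_mul]
      module
    show p + (a • x + (1 - a) • y) • u ∈ K
    rw [heq]
    exact hKc hx' hy' ha hb (by ring)
  have hIeq : I = Icc α β := by
    apply Subset.antisymm
    · intro t ht
      exact ⟨csInf_le hIc.bddBelow ht, le_csSup hIc.bddAbove ht⟩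
    · exact hIconv.ordConnected.out hαI hβI
  have hαβ : α ≤ β := csInf_le hIc.bddBelow hβI
  obtain ⟨L, hLdef⟩ : ∃ L : ℝ, L = β - α := ⟨_, rfl⟩
  have hL0 : 0 ≤ L := by rw [hLdef]; linarith
  have hIvol : volume I = ENNReal.ofReal L := by rw [hIeq, Real.volume_Icc, hLdef]
  have hJle : volume J ≤ ENNReal.ofReal L := hIvol ▸ measure_mono hJI
  have hJfin : volume J ≠ ⊤ := ne_top_of_le_ne_top ENNReal.ofReal_ne_top hJle
  obtain ⟨j, hjdef⟩ : ∃ j : ℝ, j = (volume J).toReal := ⟨_, rfl⟩
  have hjeq : volume J = ENNReal.ofReal j := by rw [hjdef, ENNReal.ofReal_toReal hJfin]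
  have hj0 : 0 ≤ j := by rw [hjdef]; exact ENNReal.toReal_nonneg
  have hjL : j ≤ L := by
    rw [hjeq] at hJle
    exact (ENNReal.ofReal_le_ofReal_iff hL0).mp hJle
  have hDvol : volume (I \ J) = ENNReal.ofReal (L - j) := by
    rw [measure_sdiff hJI hJmeas.nullMeasurableSet hJfin, hIvol, hjeq, ENNReal.ofReal_sub _ hj0]
  rw [hDvol, hjeq, hVeq, hAeq, ← ENNReal.ofReal_mul (by linarith : (0 : ℝ) ≤ 1 - κ),
    ← ENNReal.ofReal_add (by linarith) (mul_nonneg (by linarith) hj0),
    ← ENNReal.ofReal_mul (by linarith : (0 : ℝ) ≤ 3 - δ), ← ENNReal.ofReal_div_of_pos hApos]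
  apply ENNReal.ofReal_le_ofReal
  have hq : (3 - δ) * V / A = (3 - δ) * (V / A) := mul_div_assoc _ _ _
  obtain ⟨q, hqdef⟩ : ∃ q : ℝ, q = V / A := ⟨_, rfl⟩
  have hqpos : 0 < q := by rw [hqdef]; exact div_pos hVpos hApos
  have hVq : V = q * A := by rw [hqdef]; field_simp
  have hκj : 0 ≤ κ * j := mul_nonneg hκ0 hj0
  have hring : L - j + (1 - κ) * j = L - κ * j := by ring
  rw [hring, hq, ← hqdef]
  by_cases hext : ENNReal.ofReal (3 - δ) * volume K < ENNReal.ofReal L * volume P
  swap
  · rw [hVeq, hAeq, ← ENNReal.ofReal_mul (by linarith : (0 : ℝ) ≤ 3 - δ),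
      ← ENNReal.ofReal_mul hL0, not_lt,
      ENNReal.ofReal_le_ofReal_iff (mul_nonneg (by linarith) hVpos.le)] at hext
    have hle : L ≤ (3 - δ) * q := by
      rw [hVq] at hext
      exact le_of_mul_le_mul_right (by linarith) hApos
    linarith
  · have he : p + α • u ∈ K := hαI
    have heL : p + α • u + L • u ∈ K := by
      have : p + α • u + L • u = p + β • u := by rw [hLdef]; module
      rw [this]; exact hβI
    have hchord : ∀ t : ℝ, p + α • u + t • u ∈ K → 0 ≤ t ∧ t ≤ L := by
      intro t ht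
      have : p + α • u + t • u = p + (α + t) • u := by module
      rw [this] at ht
      have hmem : α + t ∈ I := ht
      rw [hIeq] at hmem
      exact ⟨by linarith [hmem.1], by linarith [hmem.2]⟩
    obtain ⟨hρL, hL2R, -⟩ := ext_basic hE hK hKc hρ hin hout hu hδ0.le hδ1 he heL hext
    have hLpos : 0 < L := lt_trans hρ hρL
    have hd0L : d0 ≤ L := le_trans hd0ρ hρL.le
    have hη' : 48 * δ * L * (R / ρ) ^ 2 ≤ η := by
      have h48 : 48 * δ * L * (R / ρ) ^ 2 ≤ 48 * δ * (2 * R) * (R / ρ) ^ 2 := by gcongr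
      have heq : 48 * δ * (2 * R) * (R / ρ) ^ 2 = 96 * δ * R ^ 3 / ρ ^ 2 := by
        rw [div_pow]
        ring
      linarith
    have hsharp := lemma_S hE hK hKc hρ hin hout hu hδ0 hδ he heL hchord hext
    have hJd : ENNReal.ofReal d0 ≤ volume J := by
      rcases hsharp with hsh | hsh
      · have hsh' : Sharp K η s (p + α • u + L • u) := hsh.mono hη' hs0.le hs
        have hsub : Icc (β - d0) β ⊆ J := by
          intro t ht
          have htK : p + t • u ∈ K := by
            have : t ∈ I := by rw [hIeq]; exact ⟨by linarith [ht.1], ht.2⟩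
            exact this
          show p + t • u ∈ N
          apply hN _ hsh' _ htK
          rw [dist_eq_norm]
          have : p + t • u - (p + α • u + L • u) = (t - β) • u := by
            rw [hLdef]; module
          rw [this, norm_smul, hu, mul_one, Real.norm_eq_abs, abs_le]
          exact ⟨by linarith [ht.1], by linarith [ht.2]⟩
        calc ENNReal.ofReal d0 = volume (Icc (β - d0) β) := by
              rw [Real.volume_Icc]; congr 1; ring
          _ ≤ volume J := measure_mono hsub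
      · have hsh' : Sharp K η s (p + α • u) := hsh.mono hη' hs0.le hs
        have hsub : Icc α (α + d0) ⊆ J := by
          intro t ht
          have htK : p + t • u ∈ K := by
            have : t ∈ I := by rw [hIeq]; exact ⟨ht.1, by linarith [ht.2]⟩
            exact this
          show p + t • u ∈ N
          apply hN _ hsh' _ htK
          rw [dist_eq_norm]
          have : p + t • u - (p + α • u) = (t - α) • u := by module
          rw [this, norm_smul, hu, mul_one, Real.norm_eq_abs, abs_le]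
          exact ⟨by linarith [ht.1], by linarith [ht.2]⟩
        calc ENNReal.ofReal d0 = volume (Icc α (α + d0)) := by
              rw [Real.volume_Icc]; congr 1; ring
          _ ≤ volume J := measure_mono hsub
    have hjd : d0 ≤ j := by
      rw [hjeq] at hJd
      exact (ENNReal.ofReal_le_ofReal_iff hj0).mp hJd
    have hcone : ENNReal.ofReal L * volume P ≤ 3 * volume K :=
      Vale.Agent.H5.P243.cone_bound hE u hu hK hKc hLpos.le he heL
    have hLA : L * A ≤ 3 * V := by
      have h3 : (3 : ℝ≥0∞) = ENNReal.ofReal 3 := by norm_num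
      rw [hVeq, hAeq, ← ENNReal.ofReal_mul hL0, h3,
        ← ENNReal.ofReal_mul (by norm_num : (0 : ℝ) ≤ 3)] at hcone
      exact (ENNReal.ofReal_le_ofReal_iff (by positivity)).mp hcone
    have hfub : volume K ≤ ENNReal.ofReal (2 * R) * volume P := by
      have h := Vale.Agent.H5.P243.chord_fubini hE u hu hK hKc (F := 2 * R) (by positivity)
        hdiam (B := P) hPc.measurableSet
      have hKP : K ∩ (Submodule.span ℝ {u})ᗮ.orthogonalProjectionOnto ⁻¹' P = K :=
        inter_eq_left.mpr (subset_preimage_image _ _)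
      rw [hKP] at h
      exact h
    have hVA : V ≤ 2 * R * A := by
      rw [hVeq, hAeq, ← ENNReal.ofReal_mul (by positivity : (0 : ℝ) ≤ 2 * R)] at hfub
      exact (ENNReal.ofReal_le_ofReal_iff (by positivity)).mp hfub
    have h1 : L ≤ 3 * q := by
      rw [hVq] at hLA
      exact le_of_mul_le_mul_right (by linarith) hApos
    have h3 : q ≤ 2 * R := by
      rw [hVq] at hVA
      exact le_of_mul_le_mul_right (by linarith) hApos
    have h4 : δ * q ≤ κ * j := by
      calc δ * q ≤ δ * (2 * R) := by gcongr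
        _ = 2 * R * δ := by ring
        _ ≤ κ * d0 := hκd
        _ ≤ κ * j := by gcongr
    linarith

end Vale.Agent.H5.GenK
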