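import Vale.Agent.H5.GenK.Defs
import Vale.Agent.H5.GenK.LemmaP
import Vale.Agent.H5.GenK.LineBound
import Vale.Agent.H5.GenK.CoverSum
import Vale.Agent.H5.GenK.Numerics

/-!
# GK (`genK_A`): every cylinder covering of a convex body, explicit gain over `1/3`

**Theorem A.** Let `K` be a compact convex set of Euclidean 3-space with
`closedBall c ρ ⊆ K ⊆ closedBall c R`, `ρ > 0`, covered by finitely many cylinders `B i + ℝ u i`
(any number, any unit directions, arbitrary bases `B i ⊆ (u i)^⊥`).  Then the relative base areas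
sum to at least `1/3 + (ρ/R)^15 / (18 * 10^24)`.
-/

open MeasureTheory Set Module
open scoped ENNReal

namespace Vale.Agent.H5.GenK

theorem genK_A (m : ℕ) (K : Set (EuclideanSpace ℝ (Fin 3))) (hKconv : Convex ℝ K)
    (hKcomp : IsCompact K) (c : EuclideanSpace ℝ (Fin 3)) (ρ R : ℝ) (hρ : 0 < ρ)
    (hin : Metric.closedBall c ρ ⊆ K) (hout : K ⊆ Metric.closedBall c R)
    (u : Fin m → EuclideanSpace ℝ (Fin 3)) (hu : ∀ i, ‖u i‖ = 1)
    (B : Fin m → Set (EuclideanSpace ℝ (Fin 3)))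
    (hB : ∀ i, ∀ x ∈ B i, inner ℝ x (u i) = 0)
    (hcov : K ⊆ ⋃ i, {x | ∃ b ∈ B i, ∃ t : ℝ, x = b + t • u i}) :
    ENNReal.ofReal (1 / 3 + gkEps (ρ / R)) ≤
      ∑ i, μHE[2] (B i) / μHE[2] ((fun x => x - inner ℝ x (u i) • u i) '' K) := by
  classical
  have hE : finrank ℝ (EuclideanSpace ℝ (Fin 3)) = 3 := by simp
  -- `ρ ≤ R`
  have hρR : ρ ≤ R := by
    have hmem : c + ρ • (EuclideanSpace.single (0 : Fin 3) (1 : ℝ)) ∈ Metric.closedBall c ρ := by
      rw [Metric.mem_closedBall, dist_eq_norm]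
      simp [norm_smul, abs_of_pos hρ]
    have h1 := hout (hin hmem)
    rw [Metric.mem_closedBall, dist_eq_norm] at h1
    simpa [norm_smul, abs_of_pos hρ] using h1
  -- the constants
  obtain ⟨hδ0, hδ, hδ1, hη0, hs0, hd0, hd0ρ, hdsq, hκ0, hκ1, hκd, hκN⟩ :=
    gk_numerics (ρ := ρ) (R := R) (q := ρ / R) (δ := (ρ / R) ^ 15 / 10 ^ 24)
      (η := 96 * ((ρ / R) ^ 15 / 10 ^ 24) * R ^ 3 / ρ ^ 2) (s := (ρ / R) ^ 5 / 14112)
      (d0 := √(2 * ρ * (96 * ((ρ / R) ^ 15 / 10 ^ 24) * R ^ 3 / ρ ^ 2)))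
      (κ := (ρ / R) ^ 8 / 3511517184000) hρ hρR rfl rfl rfl rfl rfl rfl
  -- the neighbourhood of the sharp points
  obtain ⟨N, hNc, hNK, hNvol, hNsharp⟩ :=
    lemma_P hE hKcomp hKconv hρ hin hη0 hs0 hd0 hd0ρ hdsq
  have hNm : MeasurableSet N := hNc.measurableSet
  have hline : ∀ i, ∀ p : EuclideanSpace ℝ (Fin 3),
      volume {t : ℝ | p + t • u i ∈ K \ N} +
          ENNReal.ofReal (1 - (ρ / R) ^ 8 / 3511517184000) *
            volume {t : ℝ | p + t • u i ∈ N} ≤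
        ENNReal.ofReal (3 - (ρ / R) ^ 15 / 10 ^ 24) * volume K /
          volume ((Submodule.span ℝ {u i})ᗮ.orthogonalProjectionOnto '' K) :=
    fun i p => line_bound hE hKcomp hKconv hρ hin hout hδ0 hδ hκ0 hκ1 hd0 hd0ρ hκd le_rfl hs0
      le_rfl hNm hNK hNsharp (u i) (hu i) p
  have hKpos : 0 < volume K :=
    lt_of_lt_of_le (Metric.measure_closedBall_pos volume c hρ) (measure_mono hin)
  have hNvol' : ENNReal.ofReal ((ρ / R) ^ 8 / 3511517184000) * volume N ≤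
      ENNReal.ofReal ((ρ / R) ^ 15 / 10 ^ 24 / 6) * volume K := by
    calc ENNReal.ofReal ((ρ / R) ^ 8 / 3511517184000) * volume N
        ≤ ENNReal.ofReal ((ρ / R) ^ 8 / 3511517184000) *
            (ENNReal.ofReal (432000 * (96 * ((ρ / R) ^ 15 / 10 ^ 24) * R ^ 3 / ρ ^ 2) /
              ((ρ / R) ^ 5 / 14112 * ρ)) * volume K) := by gcongr
      _ = ENNReal.ofReal ((ρ / R) ^ 8 / 3511517184000 *
            (432000 * (96 * ((ρ / R) ^ 15 / 10 ^ 24) * R ^ 3 / ρ ^ 2) /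
              ((ρ / R) ^ 5 / 14112 * ρ))) * volume K := by
          rw [← mul_assoc, ← ENNReal.ofReal_mul hκ0]
      _ ≤ ENNReal.ofReal ((ρ / R) ^ 15 / 10 ^ 24 / 6) * volume K := by
          gcongr
  have hfin := cover_sum m K N hKcomp hKpos hNm hNK ((ρ / R) ^ 15 / 10 ^ 24)
    ((ρ / R) ^ 8 / 3511517184000) hδ0.le hδ1 hκ0 hκ1 hNvol' u hu B hB hcov hline
  have e : (1 : ℝ) / 3 + gkEps (ρ / R) = 1 / 3 + (ρ / R) ^ 15 / 10 ^ 24 / 18 := by
    unfold gkEps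
    ring
  rw [e]
  exact hfin

end Vale.Agent.H5.GenK
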