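import Vale.Agent.H5.GenK.GoodRay
import Vale.Agent.H5.P243.UCone
import Vale.Agent.H5.P243.UFubini

/-!
# GK-7 (`good_plane`): the good ray, stated inside the 3-space `E`

Transfer of `good_ray` through `Ψ := Vale.Agent.H76.splitEquiv u hu : E ≃L[ℝ] u^⊥ × ℝ`.

Facts about `Ψ` (all available): `splitEquiv_fst` (` (Ψ x).1 = proj x`),
`Vale.Agent.H5.P243.ufubini_symm` (`Ψ.symm (b, t) = (b : E) + t • u`),
`Vale.Agent.H5.P243.ucone_split_u` (`Ψ u = (0, 1)`), `splitEquiv_measurePreserving`.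
Copy from the proof of `Vale.Agent.H5.P243.cone_bound` (UCone.lean): `X := ↥(span {u})ᗮ` has
`finrank = 2`, `T := Ψ '' K` is compact convex, ` (volume.prod volume) T = volume K`,
`Prod.fst '' T = proj '' K`.

Set-up: `p := (Ψ e).1`, `z₀ := (Ψ e).2` (so `e = (p : E) + z₀ • u`), `p ∈ Lev T L` (witnesses
`z₀`, `z₀ + L`, the second one is `Ψ (e + L • u)`), `cX := (Ψ c).1`.
`closedBall cX ρ ⊆ Prod.fst '' T`: for `b` with `‖b - cX‖ ≤ ρ` the point
`x := c + ((b : E) - (cX : E))` has `‖x - c‖ = ‖b - cX‖ ≤ ρ`, so `x ∈ K`, and `proj x = b`.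
`Prod.fst '' T ⊆ closedBall cX R`: `‖proj x - proj c‖ ≤ ‖x - c‖`.  `ρ ≤ R`: `c + ρ • u ∈ K`.

`good_ray` gives `y`.  Take `r := ‖y - p‖ ≥ ρ/2 > 0`, `w := r⁻¹ • ((y - p : X) : E)`
(`‖w‖ = 1`, `⟪w, u⟫ = 0` since `w ∈ u^⊥`).  For all `t z`:
`e + t • w + z • u = Ψ.symm (p + (t/r) • (y - p), z₀ + z)`, hence
`e + t • w + z • u ∈ K ↔ (p + (t/r) • (y - p), z₀ + z) ∈ T`.  The five conclusions are the
conclusions of `good_ray` read through this equivalence (`t/r > 1 ↔ t > r`; for the point near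
`c` take `t := a * r` and `z := (Ψ c).2 - z₀`, then
`e + t • w + z • u - c = ((p + a • (y - p) - cX : X) : E)`).
-/

open MeasureTheory Set Module
open scoped ENNReal

namespace Vale.Agent.H5.GenK

variable {E : Type*} [NormedAddCommGroup E] [InnerProductSpace ℝ E] [FiniteDimensional ℝ E]
  [MeasurableSpace E] [BorelSpace E]

theorem good_plane (hE : finrank ℝ E = 3) {K : Set E} (hK : IsCompact K) (hKc : Convex ℝ K)
    {c : E} {ρ R : ℝ} (hρ : 0 < ρ) (hin : Metric.closedBall c ρ ⊆ K)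
    (hout : K ⊆ Metric.closedBall c R) {u e : E} (hu : ‖u‖ = 1) {L δ : ℝ} (hL : 0 < L)
    (hδ0 : 0 < δ) (hδ : δ ≤ ρ ^ 2 / (48 * R ^ 2)) (he : e ∈ K) (heL : e + L • u ∈ K)
    (hext : ENNReal.ofReal (3 - δ) * volume K <
      ENNReal.ofReal L * volume ((Submodule.span ℝ {u})ᗮ.orthogonalProjectionOnto '' K)) :
    ∃ w : E, ‖w‖ = 1 ∧ inner ℝ w u = 0 ∧ ∃ r : ℝ, ρ / 2 ≤ r ∧
      (∃ z : ℝ, e + r • w + z • u ∈ K) ∧
      (∀ t z : ℝ, r < t → e + t • w + z • u ∉ K) ∧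
      (∃ t z : ℝ, ‖e + t • w + z • u - c‖ ≤ ρ / 2) ∧
      ∀ t : ℝ, 0 ≤ t → t ≤ r → ∀ z z' : ℝ, e + t • w + z • u ∈ K → e + t • w + z' • u ∈ K →
        z' - z ≤ L * (1 - t / r) + 24 * δ * L * (R / ρ) ^ 2 := by
  have hu0 : u ≠ 0 := by
    rintro rfl
    simp at hu
  have : Fact (finrank ℝ E = 2 + 1) := ⟨hE⟩
  have hH : finrank ℝ ↥(Submodule.span ℝ {u})ᗮ = 2 :=
    Submodule.finrank_orthogonal_span_singleton hu0
  set Ψ := Vale.Agent.H76.splitEquiv u hu with hΨ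
  set T : Set (↥(Submodule.span ℝ {u})ᗮ × ℝ) := Ψ '' K with hTdef
  have hT : IsCompact T := hK.image Ψ.continuous
  have hTc : Convex ℝ T := hKc.is_linear_image Ψ.isLinear
  have hfst : Prod.fst '' T = (Submodule.span ℝ {u})ᗮ.orthogonalProjectionOnto '' K := by
    ext z
    constructor
    · rintro ⟨_, ⟨x, hx, rfl⟩, rfl⟩
      exact ⟨x, hx, (Vale.Agent.H76.splitEquiv_fst u hu x).symm⟩
    · rintro ⟨x, hx, rfl⟩
      exact ⟨Ψ x, ⟨x, hx, rfl⟩, Vale.Agent.H76.splitEquiv_fst u hu x⟩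
  have hmp := Vale.Agent.H76.splitEquiv_measurePreserving u hu
  have h1 : (volume.prod volume) T = volume K := by
    rw [← hmp.measure_preimage hT.isClosed.measurableSet.nullMeasurableSet,
      Ψ.injective.preimage_image]
  -- membership in `T`
  have hmemT : ∀ (b : ↥(Submodule.span ℝ {u})ᗮ) (z : ℝ), (b, z) ∈ T ↔ (b : E) + z • u ∈ K := by
    intro b z
    rw [← Vale.Agent.H5.P243.ufubini_symm u hu b z]
    constructor
    · rintro ⟨x, hx, hxe⟩
      rw [← hxe, hΨ, ContinuousLinearEquiv.symm_apply_apply]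
      exact hx
    · intro h
      exact ⟨_, h, ContinuousLinearEquiv.apply_symm_apply _ _⟩
  have hdec : ∀ x : E, x = ((Ψ x).1 : E) + (Ψ x).2 • u := by
    intro x
    rw [← Vale.Agent.H5.P243.ufubini_symm u hu (Ψ x).1 (Ψ x).2, Prod.mk.eta, hΨ,
      ContinuousLinearEquiv.symm_apply_apply]
  have horth : ∀ b : ↥(Submodule.span ℝ {u})ᗮ, inner ℝ (b : E) u = 0 := fun b =>
    Submodule.mem_orthogonal_singleton_iff_inner_left.mp b.2
  obtain ⟨p, z₀, hep⟩ : ∃ (p : ↥(Submodule.span ℝ {u})ᗮ) (z₀ : ℝ), e = (p : E) + z₀ • u :=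
    ⟨_, _, hdec e⟩
  obtain ⟨cX, zc, hcc⟩ : ∃ (cX : ↥(Submodule.span ℝ {u})ᗮ) (zc : ℝ), c = (cX : E) + zc • u :=
    ⟨_, _, hdec c⟩
  have hpL : p ∈ Vale.Agent.H76.Lev T L := by
    refine ⟨z₀, z₀ + L, (hmemT p z₀).mpr ?_, (hmemT p (z₀ + L)).mpr ?_, by simp⟩
    · rw [← hep]
      exact he
    · have h2 : (p : E) + (z₀ + L) • u = e + L • u := by
        rw [hep, add_smul, add_assoc]
      rw [h2]
      exact heL
  have hnorm : ∀ (b : ↥(Submodule.span ℝ {u})ᗮ) (s : ℝ), ‖b‖ ≤ ‖(b : E) + s • u‖ := by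
    intro b s
    have h2 : ‖(b : E) + s • u‖ ^ 2 = ‖b‖ ^ 2 + s ^ 2 := by
      rw [norm_add_sq_real, inner_smul_right, horth b, norm_smul, hu, Submodule.coe_norm,
        Real.norm_eq_abs, mul_one, sq_abs]
      ring
    have h3 : ‖b‖ ^ 2 ≤ ‖(b : E) + s • u‖ ^ 2 := by
      rw [h2]
      nlinarith [sq_nonneg s]
    by_contra hlt
    rw [not_le] at hlt
    nlinarith [norm_nonneg b, norm_nonneg ((b : E) + s • u)]
  have hin' : Metric.closedBall cX ρ ⊆ Prod.fst '' T := by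
    intro b hb
    rw [Metric.mem_closedBall, dist_eq_norm] at hb
    have hx : (b : E) + zc • u ∈ K := by
      apply hin
      rw [Metric.mem_closedBall, dist_eq_norm, hcc]
      have h2 : (b : E) + zc • u - ((cX : E) + zc • u) =
          ((b - cX : ↥(Submodule.span ℝ {u})ᗮ) : E) := by
        rw [Submodule.coe_sub]
        abel
      rw [h2, ← Submodule.coe_norm]
      exact hb
    exact ⟨(b, zc), (hmemT b zc).mpr hx, rfl⟩
  have hout' : Prod.fst '' T ⊆ Metric.closedBall cX R := by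
    rintro _ ⟨⟨b, z⟩, hbz, rfl⟩
    have hx := hout ((hmemT b z).mp hbz)
    rw [Metric.mem_closedBall, dist_eq_norm, hcc] at hx
    rw [Metric.mem_closedBall, dist_eq_norm]
    have h2 : (b : E) + z • u - ((cX : E) + zc • u) =
        ((b - cX : ↥(Submodule.span ℝ {u})ᗮ) : E) + (z - zc) • u := by
      rw [Submodule.coe_sub, sub_smul]
      abel
    rw [h2] at hx
    exact (hnorm (b - cX) (z - zc)).trans hx
  have hρR : ρ ≤ R := by
    have h2 : c + ρ • u ∈ Metric.closedBall c ρ := by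
      rw [Metric.mem_closedBall, dist_eq_norm, add_sub_cancel_left, norm_smul, hu, mul_one,
        Real.norm_of_nonneg hρ.le]
    have h3 := hout (hin h2)
    rw [Metric.mem_closedBall, dist_eq_norm, add_sub_cancel_left, norm_smul, hu, mul_one,
      Real.norm_of_nonneg hρ.le] at h3
    exact h3
  have hext' : ENNReal.ofReal (3 - δ) * (volume.prod volume) T <
      ENNReal.ofReal L * volume (Prod.fst '' T) := by
    rw [h1, hfst]
    exact hext
  obtain ⟨y, hyS, hyn, hexit, ⟨a, ha0, hac⟩, hchord⟩ :=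
    good_ray hH hT hTc hL hρ hρR hδ0 hδ hpL hin' hout' hext'
  have hr : 0 < ‖y - p‖ := lt_of_lt_of_le (by positivity) hyn
  -- the key identity
  have hkey : ∀ t z : ℝ,
      e + t • ((‖y - p‖)⁻¹ • ((y - p : ↥(Submodule.span ℝ {u})ᗮ) : E)) + z • u =
      ((p + (t / ‖y - p‖) • (y - p) : ↥(Submodule.span ℝ {u})ᗮ) : E) + (z₀ + z) • u := by
    intro t z
    rw [hep, Submodule.coe_add, Submodule.coe_smul, div_eq_mul_inv]
    module
  have hiff : ∀ t z : ℝ,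
      e + t • ((‖y - p‖)⁻¹ • ((y - p : ↥(Submodule.span ℝ {u})ᗮ) : E)) + z • u ∈ K ↔
      (p + (t / ‖y - p‖) • (y - p), z₀ + z) ∈ T := by
    intro t z
    rw [hkey, hmemT]
  refine ⟨(‖y - p‖)⁻¹ • ((y - p : ↥(Submodule.span ℝ {u})ᗮ) : E), ?_, ?_, ‖y - p‖, hyn,
    ?_, ?_, ?_, ?_⟩
  · rw [norm_smul, norm_inv, norm_norm, ← Submodule.coe_norm, inv_mul_cancel₀ hr.ne']
  · rw [inner_smul_left, horth, mul_zero]
  · obtain ⟨⟨y', zz⟩, hyT, hy'⟩ := hyS
    have hyT' : (y, zz) ∈ T := by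
      have hy'' : y' = y := hy'
      rw [← hy'']
      exact hyT
    refine ⟨zz - z₀, (hiff _ _).mpr ?_⟩
    have h2 : p + (‖y - p‖ / ‖y - p‖) • (y - p) = y := by
      rw [div_self hr.ne', one_smul]
      abel
    have h3 : z₀ + (zz - z₀) = zz := by ring
    rw [h2, h3]
    exact hyT'
  · intro t z htr hmem
    have h2 := (hiff t z).mp hmem
    exact hexit (t / ‖y - p‖) ((one_lt_div hr).mpr htr) ⟨_, h2, rfl⟩
  · refine ⟨a * ‖y - p‖, zc - z₀, ?_⟩
    rw [hkey, hcc]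
    have h2 : a * ‖y - p‖ / ‖y - p‖ = a := by field_simp
    have h3 : z₀ + (zc - z₀) = zc := by ring
    rw [h2, h3]
    have h4 : ((p + a • (y - p) : ↥(Submodule.span ℝ {u})ᗮ) : E) + zc • u - ((cX : E) + zc • u) =
        ((p + a • (y - p) - cX : ↥(Submodule.span ℝ {u})ᗮ) : E) := by
      rw [Submodule.coe_sub]
      abel
    rw [h4, ← Submodule.coe_norm]
    exact hac
  · intro t ht0 htr z z' hz hz'
    have h2 := hchord (t / ‖y - p‖) (div_nonneg ht0 hr.le) ((div_le_one hr).mpr htr) (z₀ + z)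
      (z₀ + z') ((hiff t z).mp hz) ((hiff t z').mp hz')
    linarith

end Vale.Agent.H5.GenK
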