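import Vale.Agent.H5.GenK.GoodPlane
import Vale.Agent.H5.GenK.ExtBasic
import Vale.Agent.H5.GenK.Planar
import Vale.Agent.H5.GenK.SharpSlopes

/-!
# GK-14 (`lemma_S`): a `δ`-extremal chord has a sharp end (LEMMA S)

`K` compact convex in the 3-space `E`, `closedBall c ρ ⊆ K ⊆ closedBall c R`, `[e, e + L • u]`
the full chord of `K` on its line (`hfull`), `δ`-extremal (`hext`), `0 < δ ≤ ρ^2/(96 R^2)`.
Then `e + L • u` or `e` is `(η₁, s₁)`-sharp, `η₁ = 48 δ L (R/ρ)^2`, `s₁ = (ρ/R)^5/14112`.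

Proof.  `ρ ≤ R` (`c + ρ • u ∈ K`).  `ext_basic` (`δ ≤ 1`): `ρ < L ≤ 2R`, all `u`-chords
`≤ L + δ L/2`.  `m := 24 δ L (R/ρ)^2`, `η := 2m = η₁`; by `hδ`: `m ≤ L/4`, so `η ≤ L/2 ≤ R`, and
`δ L/2 ≤ m` (`(R/ρ)^2 ≥ 1`).  `good_plane` (`δ ≤ ρ^2/(48R^2)`): `w`, `r ≥ ρ/2`, `zr` with
`e + r • w + zr • u ∈ K`, exit, near, chords over `[0, r]`.
`A := {q : ℝ × ℝ | e + q.1 • w + q.2 • u ∈ K}` is convex (preimage of `K` under an affine map).
`planar_lemma` with `L, η, r, zr`: `h00` from `he`, `h0L` from `heL`, `hfull`, `hexit` from exit,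
`H1` from the chords (`η/2 = m`), `H2` from `ext_basic` (`(e + t • w + z • u) + (z' - z) • u`).
Bounds: `|zr - L| ≤ 2R` and `|zr| ≤ 2R` (`zr - L = ⟪(e + r • w + zr • u) - (e + L • u), u⟫`,
`zr = ⟪(e + r • w + zr • u) - e, u⟫`, two points of `closedBall c R`), `r ≤ 2R`
(`r = ⟪(e + r • w + zr • u) - e, w⟫`), `r ≥ ρ/2`.  So `a := (zr - L)/r`, `c' := zr/r` have
`|a|, |c'| ≤ 4R/ρ`, and `D := (L - η/2)/(2r)` satisfies `ρ/(8R) ≤ L/(8R) ≤ L/(4r) ≤ D`
(`η/2 ≤ L/2`... precisely `L - η/2 ≥ L/2`) and `D ≤ L/(2r) ≤ 2R/ρ`.  `M := 6R/ρ`.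

* First alternative: `sharp_of_two_slopes` with `e0 := e + L • u`, the same `w, u`,
  `sg₁ := a`, `sg₂ := a + D`, `D := ρ/(8R)`:
  `e0 + t • w + z • u = e + t • w + (z + L) • u ∈ K` gives `z + L ≤ L + η + sg t`.
  Near: shift `z` by `-L`.
* Second alternative: `sharp_of_two_slopes` with `e0 := e`, `u := -u`,
  `sg₁ := -c'`, `sg₂ := -(c' - D)`: `e + t • w + z • (-u) ∈ K` gives `-η + sg' t ≤ -z`.
  Near: replace `z` by `-z`.

In both cases `Sharp K η ((ρ/(6R(1+M)))^2 (ρ/(8R))) _`; with `q := ρ/R ≤ 1`: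
`ρ/(6R(1 + 6R/ρ)) = q^2/(6(q + 6)) ≥ q^2/42`, so the sharpness constant is `≥ q^5/14112`;
conclude with `Sharp.mono`.
-/

open MeasureTheory Set Module
open scoped ENNReal

namespace Vale.Agent.H5.GenK

variable {E : Type*} [NormedAddCommGroup E] [InnerProductSpace ℝ E] [FiniteDimensional ℝ E]
  [MeasurableSpace E] [BorelSpace E]

/-- The sharpness constant: `q^5/14112 ≤ (ρ/(6R(1 + 6R/ρ)))^2 (ρ/(8R))`, `q = ρ/R ≤ 1`. -/
theorem lemmaS_const {ρ R : ℝ} (hρ : 0 < ρ) (hρR : ρ ≤ R) :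
    (ρ / R) ^ 5 / 14112 ≤ (ρ / (6 * R * (1 + 6 * R / ρ))) ^ 2 * (ρ / (8 * R)) := by
  have hR : 0 < R := lt_of_lt_of_le hρ hρR
  have h1 : (ρ / R) ^ 2 / 42 ≤ ρ / (6 * R * (1 + 6 * R / ρ)) := by
    rw [div_le_div_iff₀ (by norm_num) (by positivity)]
    have e1 : (ρ / R) ^ 2 * (6 * R * (1 + 6 * R / ρ)) = 6 * ρ * (ρ + 6 * R) / R := by
      field_simp
    rw [e1, div_le_iff₀ hR]
    have h3 : 6 * ρ * (ρ + 6 * R) ≤ 6 * ρ * (7 * R) :=
      mul_le_mul_of_nonneg_left (by linarith) (by positivity)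
    linarith
  have h2 : (0 : ℝ) ≤ (ρ / R) ^ 2 / 42 := by positivity
  calc (ρ / R) ^ 5 / 14112 = ((ρ / R) ^ 2 / 42) ^ 2 * (ρ / (8 * R)) := by
        field_simp; ring
    _ ≤ (ρ / (6 * R * (1 + 6 * R / ρ))) ^ 2 * (ρ / (8 * R)) := by gcongr

/-- The arithmetic of the heights in LEMMA S. -/
theorem lemmaS_heights {ρ R δ L : ℝ} (hρ : 0 < ρ) (hρR : ρ ≤ R) (hδ0 : 0 < δ)
    (hδ : δ ≤ ρ ^ 2 / (96 * R ^ 2)) (hL : 0 < L) :
    0 < 48 * δ * L * (R / ρ) ^ 2 ∧ 48 * δ * L * (R / ρ) ^ 2 ≤ L / 2 ∧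
      δ * L / 2 ≤ 48 * δ * L * (R / ρ) ^ 2 / 2 ∧ δ ≤ 1 ∧ δ ≤ ρ ^ 2 / (48 * R ^ 2) := by
  have hR : 0 < R := lt_of_lt_of_le hρ hρR
  have hQ1 : 1 ≤ R / ρ := (one_le_div hρ).mpr hρR
  have hQ2 : 1 ≤ (R / ρ) ^ 2 := one_le_pow₀ hQ1
  have hδQ : δ * (R / ρ) ^ 2 ≤ 1 / 96 := by
    have h1 : δ * (R / ρ) ^ 2 ≤ ρ ^ 2 / (96 * R ^ 2) * (R / ρ) ^ 2 :=
      mul_le_mul_of_nonneg_right hδ (by positivity)
    have e1 : ρ ^ 2 / (96 * R ^ 2) * (R / ρ) ^ 2 = 1 / 96 := by field_simp
    linarith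
  have hδle : δ ≤ δ * (R / ρ) ^ 2 := le_mul_of_one_le_right hδ0.le hQ2
  refine ⟨by positivity, ?_, ?_, by linarith, ?_⟩
  · have e1 : 48 * δ * L * (R / ρ) ^ 2 = 48 * L * (δ * (R / ρ) ^ 2) := by ring
    rw [e1]
    have h2 : L * (δ * (R / ρ) ^ 2) ≤ L * (1 / 96) := mul_le_mul_of_nonneg_left hδQ hL.le
    linarith
  · have h1 : δ * L ≤ δ * L * (R / ρ) ^ 2 := le_mul_of_one_le_right (by positivity) hQ2
    have h2 : 0 < δ * L := mul_pos hδ0 hL
    have e1 : 48 * δ * L * (R / ρ) ^ 2 = 48 * (δ * L * (R / ρ) ^ 2) := by ring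
    rw [e1]
    linarith
  · refine hδ.trans ?_
    apply div_le_div_of_nonneg_left (by positivity) (by positivity)
    have : 0 < R ^ 2 := by positivity
    linarith

theorem lemma_S (hE : finrank ℝ E = 3) {K : Set E} (hK : IsCompact K) (hKc : Convex ℝ K)
    {c : E} {ρ R : ℝ} (hρ : 0 < ρ) (hin : Metric.closedBall c ρ ⊆ K)
    (hout : K ⊆ Metric.closedBall c R) {u e : E} (hu : ‖u‖ = 1) {L δ : ℝ}
    (hδ0 : 0 < δ) (hδ : δ ≤ ρ ^ 2 / (96 * R ^ 2)) (he : e ∈ K) (heL : e + L • u ∈ K)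
    (hfull : ∀ z : ℝ, e + z • u ∈ K → 0 ≤ z ∧ z ≤ L)
    (hext : ENNReal.ofReal (3 - δ) * volume K <
      ENNReal.ofReal L * volume ((Submodule.span ℝ {u})ᗮ.orthogonalProjectionOnto '' K)) :
    Sharp K (48 * δ * L * (R / ρ) ^ 2) ((ρ / R) ^ 5 / 14112) (e + L • u) ∨
      Sharp K (48 * δ * L * (R / ρ) ^ 2) ((ρ / R) ^ 5 / 14112) e := by
  -- `ρ ≤ R`
  have hρR : ρ ≤ R := by
    have h1 : c + ρ • u ∈ Metric.closedBall c ρ := by
      rw [Metric.mem_closedBall, dist_eq_norm, add_sub_cancel_left, norm_smul, hu, mul_one,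
        Real.norm_eq_abs, abs_of_pos hρ]
    have h2 := hout (hin h1)
    rw [Metric.mem_closedBall, dist_eq_norm, add_sub_cancel_left, norm_smul, hu, mul_one,
      Real.norm_eq_abs, abs_of_pos hρ] at h2
    exact h2
  have hR : 0 < R := lt_of_lt_of_le hρ hρR
  have hδ1 : δ ≤ 1 := by
    have hQ2 : 1 ≤ (R / ρ) ^ 2 := one_le_pow₀ ((one_le_div hρ).mpr hρR)
    have h1 : δ * (R / ρ) ^ 2 ≤ ρ ^ 2 / (96 * R ^ 2) * (R / ρ) ^ 2 :=
      mul_le_mul_of_nonneg_right hδ (by positivity)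
    have e1 : ρ ^ 2 / (96 * R ^ 2) * (R / ρ) ^ 2 = 1 / 96 := by field_simp
    have hδle : δ ≤ δ * (R / ρ) ^ 2 := le_mul_of_one_le_right hδ0.le hQ2
    linarith
  obtain ⟨hρL, hL2R, hchord⟩ := ext_basic hE hK hKc hρ hin hout hu hδ0.le hδ1 he heL hext
  have hL : 0 < L := hρ.trans hρL
  -- the height `η`
  obtain ⟨hη0, hηL2, hδLη, -, hδ48⟩ := lemmaS_heights hρ hρR hδ0 hδ hL
  obtain ⟨η, hη⟩ : ∃ η : ℝ, η = 48 * δ * L * (R / ρ) ^ 2 := ⟨_, rfl⟩
  rw [← hη] at hη0 hηL2 hδLη ⊢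
  have hηm : 24 * δ * L * (R / ρ) ^ 2 = η / 2 := by rw [hη]; ring
  have hηR : η ≤ R := by linarith
  -- the good plane
  obtain ⟨w, hw, hwu, r, hr2, ⟨zr, hzr⟩, hexit, hnear, hch⟩ :=
    good_plane hE hK hKc hρ hin hout hu hL hδ0 hδ48 he heL hext
  have hr : 0 < r := by linarith
  -- the planar section
  obtain ⟨A, hA⟩ : ∃ A : Set (ℝ × ℝ), A = {q : ℝ × ℝ | e + q.1 • w + q.2 • u ∈ K} := ⟨_, rfl⟩
  have hAmem : ∀ t z : ℝ, ((t, z) : ℝ × ℝ) ∈ A ↔ e + t • w + z • u ∈ K := by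
    intro t z; rw [hA]; rfl
  have hAconv : Convex ℝ A := by
    rw [hA]
    intro p hp q hq a b ha hb hab
    have h := hKc hp hq ha hb hab
    show e + (a • p + b • q).1 • w + (a • p + b • q).2 • u ∈ K
    obtain rfl : b = 1 - a := by linarith
    convert h using 1
    simp only [Prod.fst_add, Prod.snd_add, Prod.smul_fst, Prod.smul_snd, smul_eq_mul]
    module
  have key := planar_lemma hAconv hL hη0 (by linarith : η ≤ L) hr
    ((hAmem 0 0).mpr (by simpa using he))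
    ((hAmem 0 L).mpr (by simpa using heL))
    (fun z hz => hfull z (by simpa using (hAmem 0 z).mp hz))
    ((hAmem r zr).mpr hzr)
    (fun p hp => by
      by_contra hlt
      exact hexit p.1 p.2 (not_le.mp hlt) ((hAmem p.1 p.2).mp hp))
    (fun t z z' ht0 htr hz hz' => by
      have := hch t ht0 htr z z' ((hAmem t z).mp hz) ((hAmem t z').mp hz')
      rw [hηm] at this
      exact this)
    (fun t z z' hz hz' => by
      have h1 : (e + t • w + z • u) + (z' - z) • u ∈ K := by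
        have : (e + t • w + z • u) + (z' - z) • u = e + t • w + z' • u := by module
        rw [this]; exact (hAmem t z').mp hz'
      have := hchord _ ((hAmem t z).mp hz) _ h1
      linarith)
  -- size bounds
  have hP : e + r • w + zr • u ∈ Metric.closedBall c R := hout hzr
  have hec : e ∈ Metric.closedBall c R := hout he
  have heLc : e + L • u ∈ Metric.closedBall c R := hout heL
  rw [Metric.mem_closedBall, dist_eq_norm] at hP hec heLc
  have hwu' : inner ℝ u w = (0 : ℝ) := by rw [real_inner_comm]; exact hwu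
  have hww : inner ℝ w w = (1 : ℝ) := by rw [real_inner_self_eq_norm_sq, hw]; norm_num
  have huu : inner ℝ u u = (1 : ℝ) := by rw [real_inner_self_eq_norm_sq, hu]; norm_num
  have hd1 : ‖(e + r • w + zr • u) - e‖ ≤ 2 * R := by
    calc ‖(e + r • w + zr • u) - e‖ = ‖((e + r • w + zr • u) - c) - (e - c)‖ := by
          congr 1; abel
      _ ≤ ‖(e + r • w + zr • u) - c‖ + ‖e - c‖ := norm_sub_le _ _
      _ ≤ 2 * R := by linarith
  have hd2 : ‖(e + r • w + zr • u) - (e + L • u)‖ ≤ 2 * R := by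
    calc ‖(e + r • w + zr • u) - (e + L • u)‖
          = ‖((e + r • w + zr • u) - c) - ((e + L • u) - c)‖ := by congr 1; abel
      _ ≤ ‖(e + r • w + zr • u) - c‖ + ‖(e + L • u) - c‖ := norm_sub_le _ _
      _ ≤ 2 * R := by linarith
  have hr_eq : inner ℝ ((e + r • w + zr • u) - e) w = r := by
    have : (e + r • w + zr • u) - e = r • w + zr • u := by abel
    rw [this, inner_add_left, inner_smul_left, inner_smul_left, hww, hwu']; simp
  have hzr_eq : inner ℝ ((e + r • w + zr • u) - e) u = zr := by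
    have : (e + r • w + zr • u) - e = r • w + zr • u := by abel
    rw [this, inner_add_left, inner_smul_left, inner_smul_left, hwu, huu]; simp
  have hzrL_eq : inner ℝ ((e + r • w + zr • u) - (e + L • u)) u = zr - L := by
    have : (e + r • w + zr • u) - (e + L • u) = r • w + (zr - L) • u := by module
    rw [this, inner_add_left, inner_smul_left, inner_smul_left, hwu, huu]; simp
  have hr2R : r ≤ 2 * R := by
    have := real_inner_le_norm ((e + r • w + zr • u) - e) w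
    rw [hr_eq, hw, mul_one] at this; linarith
  have hzr2R : |zr| ≤ 2 * R := by
    have := abs_real_inner_le_norm ((e + r • w + zr • u) - e) u
    rw [hzr_eq, hu, mul_one] at this; linarith
  have hzrL2R : |zr - L| ≤ 2 * R := by
    have := abs_real_inner_le_norm ((e + r • w + zr • u) - (e + L • u)) u
    rw [hzrL_eq, hu, mul_one] at this; linarith
  -- the slopes
  obtain ⟨a, ha⟩ : ∃ a : ℝ, a = (zr - L) / r := ⟨_, rfl⟩
  obtain ⟨c', hc'⟩ : ∃ c' : ℝ, c' = zr / r := ⟨_, rfl⟩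
  obtain ⟨D', hD'⟩ : ∃ D' : ℝ, D' = (L - η / 2) / (2 * r) := ⟨_, rfl⟩
  rw [← ha, ← hc', ← hD'] at key
  have hρ2r : ρ ≤ 2 * r := by linarith
  have haM : |a| ≤ 4 * R / ρ := by
    rw [ha, abs_div, abs_of_pos hr, div_le_div_iff₀ hr hρ]
    calc |zr - L| * ρ ≤ (2 * R) * (2 * r) := mul_le_mul hzrL2R hρ2r hρ.le (by positivity)
      _ = 4 * R * r := by ring
  have hcM : |c'| ≤ 4 * R / ρ := by
    rw [hc', abs_div, abs_of_pos hr, div_le_div_iff₀ hr hρ]
    calc |zr| * ρ ≤ (2 * R) * (2 * r) := mul_le_mul hzr2R hρ2r hρ.le (by positivity)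
      _ = 4 * R * r := by ring
  have hD'lb : ρ / (8 * R) ≤ D' := by
    rw [hD', div_le_div_iff₀ (by positivity) (by positivity)]
    calc ρ * (2 * r) ≤ ρ * (4 * R) := mul_le_mul_of_nonneg_left (by linarith) hρ.le
      _ = (ρ / 2) * (8 * R) := by ring
      _ ≤ (L - η / 2) * (8 * R) := mul_le_mul_of_nonneg_right (by linarith) (by positivity)
  have hD'0 : 0 < D' := lt_of_lt_of_le (by positivity) hD'lb
  have hD'ub : D' ≤ 2 * R / ρ := by
    rw [hD', div_le_div_iff₀ (by positivity) hρ]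
    exact mul_le_mul (by linarith) hρ2r hρ.le (by positivity)
  have h46 : 4 * R / ρ + 2 * R / ρ = 6 * R / ρ := by ring
  have h4le6 : 4 * R / ρ ≤ 6 * R / ρ := by
    have : 0 ≤ 2 * R / ρ := by positivity
    linarith
  have hs := lemmaS_const hρ hρR
  rcases key with key | key
  · left
    have hS := sharp_of_two_slopes (K := K) hKc hK.isClosed (c := c) (e0 := e + L • u) (w := w)
      (u := u) (ρ := ρ) (R := R) (η := η) (sg₁ := a) (sg₂ := a + D') (M := 6 * R / ρ)
      (D := ρ / (8 * R)) hρ hη0.le hηR hin hout heL hw hu hwu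
      (fun t z h => by
        have h' : ((t, z + L) : ℝ × ℝ) ∈ A := by
          rw [hAmem]
          have : e + t • w + (z + L) • u = e + L • u + t • w + z • u := by module
          rw [this]; exact h
        have := (key _ h').1
        dsimp only at this
        linarith)
      (fun t z h => by
        have h' : ((t, z + L) : ℝ × ℝ) ∈ A := by
          rw [hAmem]
          have : e + t • w + (z + L) • u = e + L • u + t • w + z • u := by module
          rw [this]; exact h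
        have := (key _ h').2
        dsimp only at this
        linarith)
      (by
        obtain ⟨t, z, h⟩ := hnear
        refine ⟨t, z - L, ?_⟩
        have : e + L • u + t • w + (z - L) • u - c = e + t • w + z • u - c := by module
        rw [this]; exact h)
      (haM.trans h4le6)
      (by
        calc |a + D'| ≤ |a| + |D'| := abs_add_le _ _
          _ ≤ 4 * R / ρ + 2 * R / ρ := by rw [abs_of_pos hD'0]; linarith
          _ = 6 * R / ρ := h46)
      (by positivity)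
      (by rw [show a - (a + D') = -D' by ring, abs_neg, abs_of_pos hD'0]; exact hD'lb)
    exact hS.mono le_rfl (by positivity) hs
  · right
    have hS := sharp_of_two_slopes (K := K) hKc hK.isClosed (c := c) (e0 := e) (w := w)
      (u := -u) (ρ := ρ) (R := R) (η := η) (sg₁ := -c') (sg₂ := -(c' - D')) (M := 6 * R / ρ)
      (D := ρ / (8 * R)) hρ hη0.le hηR hin hout he hw (by rw [norm_neg]; exact hu)
      (by rw [inner_neg_right, hwu, neg_zero])
      (fun t z h => by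
        have h' : ((t, -z) : ℝ × ℝ) ∈ A := by
          rw [hAmem]
          have : e + t • w + (-z) • u = e + t • w + z • (-u) := by module
          rw [this]; exact h
        have := (key _ h').1
        dsimp only at this
        linarith)
      (fun t z h => by
        have h' : ((t, -z) : ℝ × ℝ) ∈ A := by
          rw [hAmem]
          have : e + t • w + (-z) • u = e + t • w + z • (-u) := by module
          rw [this]; exact h
        have := (key _ h').2
        dsimp only at this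
        linarith)
      (by
        obtain ⟨t, z, h⟩ := hnear
        refine ⟨t, -z, ?_⟩
        have : e + t • w + (-z) • (-u) - c = e + t • w + z • u - c := by module
        rw [this]; exact h)
      (by rw [abs_neg]; exact hcM.trans h4le6)
      (by
        rw [abs_neg]
        calc |c' - D'| ≤ |c'| + |D'| := abs_sub _ _
          _ ≤ 4 * R / ρ + 2 * R / ρ := by rw [abs_of_pos hD'0]; linarith
          _ = 6 * R / ρ := h46)
      (by positivity)
      (by rw [show -c' - -(c' - D') = -D' by ring, abs_neg, abs_of_pos hD'0]; exact hD'lb)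
    exact hS.mono le_rfl (by positivity) hs

end Vale.Agent.H5.GenK
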