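import Vale.Agent.H5.P243.UFubini

/-!
# GK-23 (`weighted_fubini`): Fubini along a cylinder for the weight `1 - κ 1_N`

`K, N` measurable subsets of `E`, `u` a unit vector.  If on every line `p + ℝ u` the weighted
length `|line ∩ (K \ N)| + (1 - κ) |line ∩ N|` is at most `F`, then for every measurable base
`B ⊆ u^⊥` the weighted volume of the part of `K` in the cylinder over `B` is at most `F |B|`.

Proof.  `Ψ := Vale.Agent.H76.splitEquiv u hu` is measure preserving
(`splitEquiv_measurePreserving`), `Ψ.symm (b, t) = (b : E) + t • u`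
(`Vale.Agent.H5.P243.ufubini_symm`), `(Ψ x).1 = proj x` (`splitEquiv_fst`).  For a measurable
`S ⊆ E`, as in `Vale.Agent.H5.P243.chord_fubini` (step `h2`):
`volume (S ∩ proj ⁻¹' B) = (volume.prod volume) (Ψ '' S ∩ B ×ˢ univ)`
`= ∫⁻ x, volume (Prod.mk x ⁻¹' (Ψ '' S ∩ B ×ˢ univ))` (`Measure.prod_apply`; `Ψ '' S` is
measurable: `Ψ.toHomeomorph.toMeasurableEquiv.measurableSet_image`), and the section over `x` is
`{t | (x : E) + t • u ∈ S}` if `x ∈ B` and `∅` otherwise.  So
`volume (S ∩ proj ⁻¹' B) = ∫⁻ x in B, volume {t : ℝ | (x : E) + t • u ∈ S}`.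
Apply this to `S = K \ N` and `S = N`, use `lintegral_const_mul` (measurability of
`x ↦ volume (section)`: `measurable_measure_prodMk_left`) and `lintegral_add_left`, bound the
integrand by `F` (`hline` at `p := (x : E)`), and `setLIntegral_const`.
-/

open MeasureTheory Set Module
open scoped ENNReal

namespace Vale.Agent.H5.GenK

variable {E : Type*} [NormedAddCommGroup E] [InnerProductSpace ℝ E] [FiniteDimensional ℝ E]
  [MeasurableSpace E] [BorelSpace E]

/-- GK-23 helper: the volume of the part of a measurable set `S` in the cylinder over `B` is the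
integral over `B` of the lengths of the chords of `S` in the direction `u`. -/
theorem wfubini_slice (u : E) (hu : ‖u‖ = 1) {S : Set E} (hS : MeasurableSet S)
    {B : Set ↥(Submodule.span ℝ {u})ᗮ} (hB : MeasurableSet B) :
    volume (S ∩ (Submodule.span ℝ {u})ᗮ.orthogonalProjectionOnto ⁻¹' B) =
      ∫⁻ x in B, volume {t : ℝ | (x : E) + t • u ∈ S} := by
  set Ψ := Vale.Agent.H76.splitEquiv u hu with hΨ
  have hmp := Vale.Agent.H76.splitEquiv_measurePreserving u hu
  set T : Set (↥(Submodule.span ℝ {u})ᗮ × ℝ) := Ψ.symm ⁻¹' S with hTdef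
  have hT : MeasurableSet T := Ψ.symm.continuous.measurable hS
  have hTB : MeasurableSet (T ∩ B ×ˢ (univ : Set ℝ)) := hT.inter (hB.prod MeasurableSet.univ)
  have h1 : volume (S ∩ (Submodule.span ℝ {u})ᗮ.orthogonalProjectionOnto ⁻¹' B) =
      (volume.prod volume) (T ∩ B ×ˢ (univ : Set ℝ)) := by
    rw [← hmp.measure_preimage hTB.nullMeasurableSet]
    congr 1
    ext x
    constructor
    · rintro ⟨hxS, hxB⟩
      refine ⟨?_, ?_, mem_univ _⟩
      · show Ψ.symm (Ψ x) ∈ S
        rw [Ψ.symm_apply_apply]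
        exact hxS
      · show (Ψ x).1 ∈ B
        rw [Vale.Agent.H76.splitEquiv_fst]
        exact hxB
    · rintro ⟨hxT, hxB, -⟩
      refine ⟨?_, ?_⟩
      · have h : Ψ.symm (Ψ x) ∈ S := hxT
        rwa [Ψ.symm_apply_apply] at h
      · have h : (Ψ x).1 ∈ B := hxB
        rwa [Vale.Agent.H76.splitEquiv_fst] at h
  rw [h1, Measure.prod_apply hTB, ← lintegral_indicator hB]
  congr 1
  funext x
  by_cases hx : x ∈ B
  · rw [indicator_of_mem hx]
    congr 1
    ext t
    constructor
    · rintro ⟨h, -⟩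
      have h' : Ψ.symm (x, t) ∈ S := h
      rwa [Vale.Agent.H5.P243.ufubini_symm] at h'
    · intro h
      refine ⟨?_, hx, mem_univ _⟩
      show Ψ.symm (x, t) ∈ S
      rw [Vale.Agent.H5.P243.ufubini_symm]
      exact h
  · rw [indicator_of_notMem hx]
    have hempty : Prod.mk x ⁻¹' (T ∩ B ×ˢ (univ : Set ℝ)) = ∅ := by
      ext t
      simp [hx]
    rw [hempty, measure_empty]

theorem weighted_fubini (u : E) (hu : ‖u‖ = 1) {K N : Set E} (hK : MeasurableSet K)
    (hN : MeasurableSet N) (κ : ℝ) (F : ℝ≥0∞)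
    (hline : ∀ p : E, volume {t : ℝ | p + t • u ∈ K \ N} +
      ENNReal.ofReal (1 - κ) * volume {t : ℝ | p + t • u ∈ N} ≤ F)
    {B : Set ↥(Submodule.span ℝ {u})ᗮ} (hB : MeasurableSet B) :
    volume ((K \ N) ∩ (Submodule.span ℝ {u})ᗮ.orthogonalProjectionOnto ⁻¹' B) +
        ENNReal.ofReal (1 - κ) *
          volume (N ∩ (Submodule.span ℝ {u})ᗮ.orthogonalProjectionOnto ⁻¹' B) ≤
      F * volume B := by
  rw [wfubini_slice u hu (hK.diff hN) hB, wfubini_slice u hu hN hB]
  calc (∫⁻ x in B, volume {t : ℝ | (x : E) + t • u ∈ K \ N}) +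
        ENNReal.ofReal (1 - κ) * (∫⁻ x in B, volume {t : ℝ | (x : E) + t • u ∈ N})
      ≤ (∫⁻ x in B, volume {t : ℝ | (x : E) + t • u ∈ K \ N}) +
        (∫⁻ x in B, ENNReal.ofReal (1 - κ) * volume {t : ℝ | (x : E) + t • u ∈ N}) := by
        gcongr
        exact lintegral_const_mul_le _ _
    _ ≤ ∫⁻ x in B, (volume {t : ℝ | (x : E) + t • u ∈ K \ N} +
        ENNReal.ofReal (1 - κ) * volume {t : ℝ | (x : E) + t • u ∈ N}) := le_lintegral_add _ _
    _ ≤ ∫⁻ _x in B, F := lintegral_mono (fun x => hline (x : E))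
    _ = F * volume B := by rw [setLIntegral_const]

end Vale.Agent.H5.GenK
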